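import Vale.Agent.P207.N4.Dim
import Vale.Agent.P207.N4.Spec

/-!
# P207, line N3, package P8: limits of maps with bounded derivatives, quantitative open mapping
-/

open Set Filter Topology Metric

noncomputable section

namespace Vale.Agent.P207.N4.H662

open Vale.Agent.P207.N3 Vale.Agent.P207.N3.H662

variable [Dim]

section Lim

variable {ι E V : Type*} [NormedAddCommGroup E] [NormedSpace ℝ E] [NormedAddCommGroup V]
  [NormedSpace ℝ V]

/-- bounded functions converge along ultrafilters -/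
theorem exists_ulim [FiniteDimensional ℝ V] (𝒰 : Ultrafilter ι) {g : ι → V} {C : ℝ}
    (h : ∀ᶠ i in (𝒰 : Filter ι), ‖g i‖ ≤ C) : ∃ v, Tendsto g (𝒰 : Filter ι) (𝓝 v) := by
  have : ProperSpace V := FiniteDimensional.proper ℝ V
  have hK : IsCompact (closedBall (0 : V) C) := isCompact_closedBall 0 C
  have h1 : ∀ᶠ i in (𝒰 : Filter ι), g i ∈ closedBall (0 : V) C := by
    filter_upwards [h] with i hi
    simpa using hi
  obtain ⟨v, _, hv⟩ := hK.ultrafilter_le_nhds (𝒰.map g) (le_principal_iff.2 h1)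
  exact ⟨v, hv⟩

/-- maps with bounded derivative are Lipschitz on convex sets -/
theorem lip_of {S : Set E} (hc : Convex ℝ S) {G : E → V} {G1 : E → E →L[ℝ] V} {C : ℝ}
    (hG : ∀ u ∈ S, HasFDerivAt G (G1 u) u) (hb : ∀ u ∈ S, ‖G1 u‖ ≤ C) {u v : E} (hu : u ∈ S)
    (hv : v ∈ S) : ‖G u - G v‖ ≤ C * ‖u - v‖ :=
  hc.norm_image_sub_le_of_norm_hasFDerivWithin_le (𝕜 := ℝ)
    (fun x hx => (hG x hx).hasFDerivWithinAt) hb hv hu

/-- quadratic Taylor estimate -/
theorem taylor_of {S : Set E} (hc : Convex ℝ S) {G : E → V} {G1 : E → E →L[ℝ] V} {C : ℝ}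
    (hC : 0 ≤ C) (hG : ∀ u ∈ S, HasFDerivAt G (G1 u) u)
    (hL : ∀ u ∈ S, ∀ v ∈ S, ‖G1 u - G1 v‖ ≤ C * ‖u - v‖) {u v : E} (hu : u ∈ S)
    (hv : v ∈ S) : ‖G v - G u - G1 u (v - u)‖ ≤ C * ‖v - u‖ * ‖v - u‖ := by
  have hc' : Convex ℝ (S ∩ closedBall u ‖v - u‖) := hc.inter (convex_closedBall _ _)
  refine hc'.norm_image_sub_le_of_norm_hasFDerivWithin_le' (𝕜 := ℝ)
    (fun x hx => (hG x hx.1).hasFDerivWithinAt) (fun x hx => ?_)
    ⟨hu, mem_closedBall_self (norm_nonneg _)⟩ ⟨hv, by rw [mem_closedBall, dist_eq_norm]⟩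
  refine (hL x hx.1 u hu).trans ?_
  have := hx.2
  rw [mem_closedBall, dist_eq_norm] at this
  gcongr

/-- limits of maps with Lipschitz derivatives -/
theorem hasFDerivAt_lim {l : Filter ι} [l.NeBot] {S : Set E} (hS : IsOpen S) (hc : Convex ℝ S)
    {G : ι → E → V} {G1 : ι → E → E →L[ℝ] V} {C : ℝ} (hC : 0 ≤ C)
    (hG : ∀ᶠ i in l, ∀ u ∈ S, HasFDerivAt (G i) (G1 i u) u)
    (hL : ∀ᶠ i in l, ∀ u ∈ S, ∀ v ∈ S, ‖G1 i u - G1 i v‖ ≤ C * ‖u - v‖)
    {F : E → V} {F1 : E → E →L[ℝ] V} (hF : ∀ u ∈ S, Tendsto (fun i => G i u) l (𝓝 (F u)))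
    (hF1 : ∀ u ∈ S, Tendsto (fun i => G1 i u) l (𝓝 (F1 u))) {u : E} (hu : u ∈ S) :
    HasFDerivAt F (F1 u) u := by
  have key : ∀ v ∈ S, ‖F v - F u - F1 u (v - u)‖ ≤ C * ‖v - u‖ * ‖v - u‖ := by
    intro v hv
    have h1 : Tendsto (fun i => ‖G i v - G i u - G1 i u (v - u)‖) l
        (𝓝 ‖F v - F u - F1 u (v - u)‖) := by
      have h2 : Tendsto (fun i => G1 i u (v - u)) l (𝓝 (F1 u (v - u))) :=
        ((ContinuousLinearMap.apply ℝ V (v - u)).continuous.tendsto _).comp (hF1 u hu)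
      exact (((hF v hv).sub (hF u hu)).sub h2).norm
    refine le_of_tendsto h1 ?_
    filter_upwards [hG, hL] with i hi hi'
    exact taylor_of hc hC hi hi' hu hv
  rw [hasFDerivAt_iff_isLittleO_nhds_zero]
  rw [Asymptotics.isLittleO_iff]
  intro ε hε
  have hn : ∀ᶠ h in 𝓝 (0 : E), u + h ∈ S := by
    have : Tendsto (fun h : E => u + h) (𝓝 0) (𝓝 (u + 0)) := by
      have : Continuous fun h : E => u + h := by fun_prop
      exact this.tendsto 0
    rw [add_zero] at this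
    exact this (hS.mem_nhds hu)
  have hn2 : ∀ᶠ h in 𝓝 (0 : E), C * ‖h‖ < ε := by
    have : Tendsto (fun h : E => C * ‖h‖) (𝓝 0) (𝓝 (C * ‖(0 : E)‖)) := by
      have : Continuous fun h : E => C * ‖h‖ := by fun_prop
      exact this.tendsto 0
    rw [norm_zero, mul_zero] at this
    exact (tendsto_order.1 this).2 ε hε
  filter_upwards [hn, hn2] with h h1 h2
  have h3 := key (u + h) h1
  rw [add_sub_cancel_left] at h3
  refine h3.trans ?_
  gcongr

omit [NormedSpace ℝ E] [NormedSpace ℝ V] in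
/-- the limit of Lipschitz maps is Lipschitz -/
theorem lip_lim {l : Filter ι} [l.NeBot] {S : Set E} {G : ι → E → V} {C : ℝ}
    (hL : ∀ᶠ i in l, ∀ u ∈ S, ∀ v ∈ S, ‖G i u - G i v‖ ≤ C * ‖u - v‖)
    {F : E → V} (hF : ∀ u ∈ S, Tendsto (fun i => G i u) l (𝓝 (F u))) {u v : E} (hu : u ∈ S)
    (hv : v ∈ S) : ‖F u - F v‖ ≤ C * ‖u - v‖ := by
  refine le_of_tendsto ((hF u hu).sub (hF v hv)).norm ?_
  filter_upwards [hL] with i hi
  exact hi u hu v hv

omit [NormedSpace ℝ E] [NormedSpace ℝ V] in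
/-- equi-Lipschitz maps converge along moving points -/
theorem tendsto_moving {l : Filter ι} {S : Set E} (hS : IsOpen S) {G : ι → E → V} {C : ℝ}
    (hL : ∀ᶠ i in l, ∀ u ∈ S, ∀ v ∈ S, ‖G i u - G i v‖ ≤ C * ‖u - v‖)
    {F : E → V} {u : E} (hu : u ∈ S) (hF : Tendsto (fun i => G i u) l (𝓝 (F u))) {v : ι → E}
    (hv : Tendsto v l (𝓝 u)) : Tendsto (fun i => G i (v i)) l (𝓝 (F u)) := by
  have h1 : Tendsto (fun i => G i (v i) - G i u) l (𝓝 0) := by
    have h2 : Tendsto (fun i => C * ‖v i - u‖) l (𝓝 0) := by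
      have := ((hv.sub_const u).norm).const_mul C
      rwa [sub_self, norm_zero, mul_zero] at this
    refine squeeze_zero_norm' ?_ h2
    filter_upwards [hL, hv (hS.mem_nhds hu)] with i hi hi'
    exact hi _ hi' _ hu
  have := h1.add hF
  rw [zero_add] at this
  refine this.congr fun i => ?_
  abel

end Lim

/-! ### quantitative open mapping in the plane -/

/-- the lower bound of the linear maps with bounded norm and determinant bounded below -/
theorem exists_low (C m : ℝ) (hm : 0 < m) : ∃ κ : ℝ, 0 < κ ∧ ∀ A : E2 →L[ℝ] E2, ‖A‖ ≤ C →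
    m ≤ |A.det| → ∀ x, κ * ‖x‖ ≤ ‖A x‖ := by
  have : ProperSpace (E2 →L[ℝ] E2) := FiniteDimensional.proper ℝ _
  set K : Set ((E2 →L[ℝ] E2) × E2) := {A | ‖A‖ ≤ C ∧ m ≤ |A.det|} ×ˢ sphere (0 : E2) 1 with hK
  have hdet : Continuous fun A : E2 →L[ℝ] E2 => A.det := ContinuousLinearMap.continuous_det
  have hKc : IsCompact K := by
    refine IsCompact.prod ?_ (isCompact_sphere _ _)
    have h1 : {A : E2 →L[ℝ] E2 | ‖A‖ ≤ C ∧ m ≤ |A.det|} =
        closedBall 0 C ∩ {A | m ≤ |A.det|} := by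
      ext A
      simp
    rw [h1]
    exact (isCompact_closedBall _ _).inter_right
      (isClosed_le continuous_const hdet.abs)
  have hcont : Continuous fun p : (E2 →L[ℝ] E2) × E2 => ‖p.1 p.2‖ := by fun_prop
  have hsc : ∀ κ : ℝ, (∀ A : E2 →L[ℝ] E2, ‖A‖ ≤ C → m ≤ |A.det| → ∀ x ∈ sphere (0 : E2) 1,
      κ ≤ ‖A x‖) → ∀ A : E2 →L[ℝ] E2, ‖A‖ ≤ C → m ≤ |A.det| → ∀ x, κ * ‖x‖ ≤ ‖A x‖ := by
    intro κ h A h1 h2 x
    rcases eq_or_ne x 0 with rfl | hx
    · simp
    have hx' : 0 < ‖x‖ := norm_pos_iff.2 hx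
    have h3 := h A h1 h2 (‖x‖⁻¹ • x) (by
      rw [mem_sphere_zero_iff_norm, norm_smul, norm_inv, norm_norm, inv_mul_cancel₀ hx'.ne'])
    rw [map_smul, norm_smul, norm_inv, norm_norm] at h3
    calc κ * ‖x‖ ≤ (‖x‖⁻¹ * ‖A x‖) * ‖x‖ := by gcongr
      _ = ‖A x‖ := by field_simp
  rcases K.eq_empty_or_nonempty with he | hne
  · refine ⟨1, one_pos, hsc 1 fun A h1 h2 x hx => ?_⟩
    exact absurd (show (A, x) ∈ K from ⟨⟨h1, h2⟩, hx⟩) (by rw [he]; exact notMem_empty _)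
  · obtain ⟨p, hp, hmin⟩ := hKc.exists_isMinOn hne hcont.continuousOn
    have hpos : 0 < ‖p.1 p.2‖ := by
      rw [norm_pos_iff]
      intro h0
      have hdet0 : p.1.det ≠ 0 := by
        intro h
        have := hp.1.2
        rw [h, abs_zero] at this
        linarith
      have h1 : p.2 = 0 := by
        apply (p.1.toContinuousLinearEquivOfDetNeZero hdet0).injective
        rw [map_zero, ContinuousLinearMap.toContinuousLinearEquivOfDetNeZero_apply]
        exact h0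
      have h2 := hp.2
      rw [h1, mem_sphere_zero_iff_norm, norm_zero] at h2
      norm_num at h2
    refine ⟨‖p.1 p.2‖, hpos, hsc ‖p.1 p.2‖ ?_⟩
    intro A h1 h2 x hx
    have h3 : (A, x) ∈ K := ⟨⟨h1, h2⟩, hx⟩
    have h4 := isMinOn_iff.1 hmin (A, x) h3
    exact h4

/-- **quantitative open mapping**: images of balls contain balls -/
theorem exists_surj (C m r : ℝ) (hC : 0 ≤ C) (hm : 0 < m) (hr : 0 < r) : ∃ c : ℝ, 0 < c ∧
    ∀ (F : E2 → E2) (F1 : E2 → E2 →L[ℝ] E2) (u : E2), (∀ v ∈ ball u r, HasFDerivAt F (F1 v) v) →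
      (∀ v ∈ ball u r, ∀ w ∈ ball u r, ‖F1 v - F1 w‖ ≤ C * ‖v - w‖) → ‖F1 u‖ ≤ C →
      m ≤ |(F1 u).det| → closedBall (F u) c ⊆ F '' ball u r := by
  obtain ⟨κ, hκ, hlow⟩ := exists_low C m hm
  -- a small radius
  set ε : ℝ := min (r / 2) (κ / (2 * (C + 1))) with hε
  have hε0 : 0 < ε := lt_min (by linarith) (by positivity)
  have hεr : ε < r := lt_of_le_of_lt (min_le_left _ _) (by linarith)
  have hεC : C * ε ≤ κ / 2 := by
    have h1 : ε ≤ κ / (2 * (C + 1)) := min_le_right _ _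
    calc C * ε ≤ C * (κ / (2 * (C + 1))) := by gcongr
      _ ≤ (C + 1) * (κ / (2 * (C + 1))) := by gcongr; linarith
      _ = κ / 2 := by field_simp
  refine ⟨κ / 2 * ε, by positivity, fun F F1 u hF hL hn hdet => ?_⟩
  have hdet0 : (F1 u).det ≠ 0 := by
    intro h
    rw [h, abs_zero] at hdet
    linarith
  set e := (F1 u).toContinuousLinearEquivOfDetNeZero hdet0 with he
  have hee : ∀ x, e x = F1 u x :=
    fun x => ContinuousLinearMap.toContinuousLinearEquivOfDetNeZero_apply _ hdet0 x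
  let R : (F1 u).NonlinearRightInverse :=
    { toFun := e.symm
      nnnorm := (Real.toNNReal κ)⁻¹
      bound' := fun y => by
        have h1 := hlow (F1 u) hn hdet (e.symm y)
        rw [← hee, e.apply_symm_apply] at h1
        rw [NNReal.coe_inv, Real.coe_toNNReal _ hκ.le, inv_mul_eq_div, le_div_iff₀ hκ]
        linarith
      right_inv' := fun y => by
        rw [← hee, e.apply_symm_apply] }
  have hc : Convex ℝ (closedBall u ε) := convex_closedBall _ _
  have hsub : closedBall u ε ⊆ ball u r := closedBall_subset_ball hεr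
  have hA : ApproximatesLinearOn F (F1 u) (closedBall u ε) (Real.toNNReal (κ / 2)) := by
    intro x hx y hy
    refine hc.norm_image_sub_le_of_norm_hasFDerivWithin_le' (𝕜 := ℝ)
      (fun x hx => (hF x (hsub hx)).hasFDerivWithinAt) (fun x hx => ?_) hy hx
    refine (hL x (hsub hx) u (mem_ball_self hr)).trans ?_
    have h2 : ‖x - u‖ ≤ ε := by rwa [mem_closedBall, dist_eq_norm] at hx
    rw [Real.coe_toNNReal _ (by positivity)]
    refine le_trans ?_ hεC
    gcongr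
  have h3 := hA.surjOn_closedBall_of_nonlinearRightInverse R hε0.le (b := u) le_rfl
  have h4 : ((R.nnnorm : ℝ)⁻¹ - (Real.toNNReal (κ / 2) : ℝ)) * ε = κ / 2 * ε := by
    have h5 : (R.nnnorm : ℝ)⁻¹ = κ := by
      change (((Real.toNNReal κ)⁻¹ : NNReal) : ℝ)⁻¹ = κ
      rw [NNReal.coe_inv, inv_inv, Real.coe_toNNReal _ hκ.le]
    rw [h5, Real.coe_toNNReal _ (by positivity)]
    ring
  rw [h4] at h3
  exact h3.trans (image_mono hsub)

end Vale.Agent.P207.N4.H662
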