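import Vale.Agent.P207.N4.Dim
import Vale.Agent.P207.N4.H575.T3.Pack
import Vale.Agent.P207.N4.H662.Ult

/-!
# P207, line N3, package P8: exhaustion, transition maps, dense orbits
-/

open Set Filter Topology Metric MeasureTheory
open scoped ContDiff

set_option linter.unusedSectionVars false

noncomputable section

namespace Vale.Agent.P207.N4.H662

open Vale.Agent.P207.N3 Vale.Agent.P207.N3.H662

variable [Dim]

variable {Γ X B : Type} [Group Γ] [MetricSpace X] [ProperSpace X] [MulAction Γ X]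
  [IsIsometricSMul Γ X] [TopologicalSpace B] [CompactSpace B] [T2Space B] [MulAction Γ B]
  [ContinuousConstSMul Γ B] (L : Leaf Γ X B)

/-- the past discs exhaust the leaf, uniformly on compact sets -/
theorem exhaust_unif {K : Set (X × B)} (hK : IsCompact K) (hne : ∀ p ∈ K, p.2 ≠ L.em p.1) :
    ∃ c₀ : ℝ, ∀ p ∈ K, ∀ c ≥ c₀, p.2 ∈ L.e (L.φ (-c) p.1) '' ball 0 1 := by
  -- bound for the levels
  obtain ⟨M, hM⟩ := (hK.image continuous_fst).bddAbove_image
    (f := fun x => |L.lv x|) L.lv_cont.abs.continuousOn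
  have hM' : ∀ p ∈ K, |L.lv p.1| ≤ M := fun p hp => hM ⟨p.1, ⟨p, hp, rfl⟩, rfl⟩
  set K1 : Set (B × B) := (fun p : X × B => (L.em p.1, p.2)) '' K with hK1
  have hK1c : IsCompact K1 :=
    hK.image ((L.em_cont.comp continuous_fst).prodMk continuous_snd)
  have hK1n : ∀ p ∈ K1, p.1 ≠ p.2 := by
    rintro _ ⟨p, hp, rfl⟩
    exact (hne p hp).symm
  set K2 : Set X := {x | (L.em x, L.ep x) ∈ K1 ∧ |L.lv x| ≤ M} with hK2
  have hK2c : IsCompact K2 := L.hopf_proper K1 hK1c hK1n M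
  set K3 : Set X := K2 ∪ Prod.fst '' K with hK3
  have hK3c : IsCompact K3 := hK2c.union (hK.image continuous_fst)
  obtain ⟨C, hC⟩ := Metric.isBounded_iff.1 hK3c.isBounded
  obtain ⟨c₀, hc₀⟩ := L.past_engulf C
  refine ⟨c₀, fun p hp c hc => ?_⟩
  obtain ⟨y, hy1, hy2, hy3⟩ := L.exists_frame (L.em p.1) p.2 (hne p hp).symm (L.lv p.1)
  have hyK : y ∈ K2 := ⟨by rw [hy1, hy2]; exact ⟨p, hp, rfl⟩, by rw [hy3]; exact hM' p hp⟩
  have h1 := hc₀ p.1 y hy1.symm hy3.symm (hC (Or.inr ⟨p, hp, rfl⟩) (Or.inl hyK)) c hc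
  rwa [hy2] at h1

/-- the past discs exhaust the leaf -/
theorem exhaust {x : X} {η : B} (h : η ≠ L.em x) :
    ∃ c₀ : ℝ, ∀ c ≥ c₀, η ∈ L.e (L.φ (-c) x) '' ball 0 1 := by
  obtain ⟨c₀, hc₀⟩ := exhaust_unif L (K := {(x, η)}) isCompact_singleton (by
    intro p hp
    rw [mem_singleton_iff] at hp
    rw [hp]
    exact h)
  exact ⟨c₀, fun c hc => hc₀ (x, η) rfl c hc⟩

/-- the forward discs shrink to the end point -/
theorem shrink {x : X} {η : B} (h : η ≠ L.ep x) :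
    ∃ c₀ : ℝ, ∀ c ≥ c₀, η ∉ L.e (L.φ c x) '' closedBall 0 3 := by
  by_cases hη : η ∈ L.e x '' ball 0 3
  swap
  · refine ⟨L.t1, fun c hc hcon => hη ?_⟩
    exact image_mono (ball_subset_ball (by norm_num)) (L.engulf x c hc hcon)
  obtain ⟨u, hu, rfl⟩ := hη
  have hu0 : u ≠ 0 := by
    rintro rfl
    exact h (L.e_zero x)
  obtain ⟨C, hC⟩ := L.contract 1 le_rfl
  have hlim : Tendsto (fun c : ℝ => C * Real.exp (-L.χ * c) * 3) atTop (𝓝 0) := by
    have h1 : Tendsto (fun t : ℝ => Real.exp (-(L.χ * t))) atTop (𝓝 0) :=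
      Real.tendsto_exp_neg_atTop_nhds_zero.comp (Tendsto.const_mul_atTop L.χ_pos tendsto_id)
    have h2 := (h1.const_mul C).mul_const 3
    rw [mul_zero, zero_mul] at h2
    refine h2.congr fun t => ?_
    rw [neg_mul]
  obtain ⟨c₀, hc₀⟩ := eventually_atTop.1 ((tendsto_order.1 hlim).2 ‖u‖ (norm_pos_iff.2 hu0))
  refine ⟨max c₀ L.t1, fun c hc hcon => ?_⟩
  have hc1 : L.t1 ≤ c := (le_max_right _ _).trans hc
  obtain ⟨v, hv, hve⟩ := hcon
  -- the map tau from the disc of phi_c x to the disc of x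
  have hsub : ∀ z ∈ closedBall (0 : E2) 3, L.e (L.φ c x) z ∈ L.e x '' ball 0 1 :=
    fun z hz => L.engulf x c hc1 ⟨z, hz, rfl⟩
  have hdiff : ∀ z ∈ ball (0 : E2) 3,
      HasFDerivAt (L.τ (L.φ c x) x) (fderiv ℝ (L.τ (L.φ c x) x) z) z := by
    intro z hz
    have hdm : ball (0 : E2) 3 ⊆ dom L.e (L.φ c x) x := fun z hz => ⟨hz,
      image_mono (ball_subset_ball (by norm_num)) (hsub z (ball_subset_closedBall hz))⟩
    have h1 := (L.tau_smooth (L.φ c x) x (L.em_φ c x)).mono hdm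
    exact ((h1.contDiffAt (isOpen_ball.mem_nhds hz)).differentiableAt (by simp)).hasFDerivAt
  have hb : ∀ z ∈ ball (0 : E2) 3, ‖fderiv ℝ (L.τ (L.φ c x) x) z‖ ≤ C * Real.exp (-L.χ * c) := by
    intro z hz
    have h1 := hC x c hc1 z hz
    rwa [norm_iteratedFDeriv_one] at h1
  -- from the ball to the closed ball by continuity of `e`
  have hcontτ : ContinuousOn (L.τ (L.φ c x) x) (closedBall 0 3) := by
    intro z hz
    obtain ⟨z', hz', hze⟩ := hsub z hz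
    have h1 : Tendsto (fun z => L.e (L.φ c x) z) (𝓝[closedBall 0 3] z) (𝓝 (L.e x z')) := by
      rw [hze]
      exact L.e_cont_x (L.φ c x) z hz
    have h2 := (L.inv_tendsto (tendsto_const_nhds (x := x)) h1
      (ball_subset_ball (by norm_num) hz')).2
    have h3 : L.τ (L.φ c x) x z = z' := by
      rw [L.tau_eq, ← hze, L.inv_e (ball_subset_closedBall (ball_subset_ball (by norm_num) hz'))]
    change Tendsto _ _ (𝓝 (L.τ (L.φ c x) x z))
    rw [h3]
    exact h2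
  have hlip : ∀ z ∈ ball (0 : E2) 3, ‖L.τ (L.φ c x) x z - L.τ (L.φ c x) x 0‖ ≤
      C * Real.exp (-L.χ * c) * 3 := by
    intro z hz
    refine (lip_of (convex_ball (0 : E2) 3) hdiff hb hz (by simp)).trans ?_
    have h1 : 0 ≤ C * Real.exp (-L.χ * c) := (norm_nonneg _).trans (hb z hz)
    rw [sub_zero]
    rw [mem_ball, dist_zero_right] at hz
    gcongr
  have hlip' : ‖L.τ (L.φ c x) x v - L.τ (L.φ c x) x 0‖ ≤ C * Real.exp (-L.χ * c) * 3 := by
    have hcl : v ∈ closure (ball (0 : E2) 3) := by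
      rwa [closure_ball (0 : E2) (by norm_num : (3 : ℝ) ≠ 0)]
    have h1 : ContinuousWithinAt (fun z => ‖L.τ (L.φ c x) x z - L.τ (L.φ c x) x 0‖)
        (ball 0 3) v := (((hcontτ v hv).mono ball_subset_closedBall).sub_const _).norm
    have : (𝓝[ball (0 : E2) 3] v).NeBot := mem_closure_iff_nhdsWithin_neBot.1 hcl
    refine le_of_tendsto h1 ?_
    filter_upwards [self_mem_nhdsWithin] with z hz using hlip z hz
  have h5 : L.τ (L.φ c x) x v = u := by
    rw [L.tau_eq, hve, L.inv_e (ball_subset_closedBall hu)]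
  have h6 : L.τ (L.φ c x) x 0 = 0 := by
    rw [L.tau_eq, L.e_zero, L.ep_φ, ← L.e_zero x, L.inv_e (by simp)]
  rw [h5, h6, sub_zero] at hlip'
  exact absurd hlip' (not_le.2 (hc₀ c ((le_max_left _ _).trans hc)))

/-! ### transition maps -/

theorem tau_mem {x y : X} {u : E2} (hu : u ∈ L.dm x y) : L.τ x y u ∈ ball (0 : E2) 3 :=
  L.inv_mem_ball le_rfl hu.2

theorem e_tau {x y : X} {u : E2} (hu : u ∈ L.dm x y) : L.e y (L.τ x y u) = L.e x u :=
  L.e_inv (image_mono ball_subset_closedBall hu.2)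

theorem dm_open (x y : X) : IsOpen (L.dm x y) := by
  rw [isOpen_iff_mem_nhds]
  intro u hu
  have h1 : Tendsto (fun z => L.e x z) (𝓝 u) (𝓝 (L.e x u)) :=
    (L.e_cont_x x).continuousAt (mem_of_superset (isOpen_ball.mem_nhds hu.1) ball_subset_closedBall)
  obtain ⟨v, hv, hve⟩ := hu.2
  rw [← hve] at h1
  have h2 := (L.inv_tendsto (tendsto_const_nhds (x := y)) h1 hv).1
  filter_upwards [h2, isOpen_ball.mem_nhds hu.1] with z hz hz' using ⟨hz', hz⟩

theorem tau_diff {x y : X} (h : L.em x = L.em y) {u : E2} (hu : u ∈ L.dm x y) :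
    DifferentiableAt ℝ (L.τ x y) u :=
  ((L.tau_smooth x y h).contDiffAt ((dm_open L x y).mem_nhds hu)).differentiableAt (by simp)

/-- **chain rule** for functions on the leaf -/
theorem fderiv_chain {V : Type} [NormedAddCommGroup V] [NormedSpace ℝ V] {ξ : B} {f : B → V}
    (hf : L.SmoothOn ξ f) {x y : X} (hx : L.em x = ξ) (hy : L.em y = ξ) {u : E2}
    (hu : u ∈ L.dm x y) : fderiv ℝ (fun z => f (L.e x z)) u =
      (fderiv ℝ (fun z => f (L.e y z)) (L.τ x y u)).comp (fderiv ℝ (L.τ x y) u) := by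
  have h1 : (fun z => f (L.e x z)) =ᶠ[𝓝 u] fun z => (fun z => f (L.e y z)) (L.τ x y z) := by
    filter_upwards [(dm_open L x y).mem_nhds hu] with z hz
    rw [e_tau L hz]
  rw [h1.fderiv_eq]
  have h2 : DifferentiableAt ℝ (fun z => f (L.e y z)) (L.τ x y u) :=
    ((hf y hy).contDiffAt (isOpen_ball.mem_nhds (tau_mem L hu))).differentiableAt (by simp)
  exact fderiv_comp u h2 (tau_diff L (hx.trans hy.symm) hu)

/-- the derivatives of the transition maps depend continuously on the frames -/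
theorem fderiv_tau_tendsto {ι : Type*} {l : Filter ι} {x y : ι → X} {u : ι → E2} {x₀ y₀ : X}
    {u₀ : E2} (he : ∀ᶠ i in l, L.em (x i) = L.em (y i)) (hd : ∀ᶠ i in l, u i ∈ L.dm (x i) (y i))
    (he0 : L.em x₀ = L.em y₀) (hd0 : u₀ ∈ L.dm x₀ y₀) (hx : Tendsto x l (𝓝 x₀))
    (hy : Tendsto y l (𝓝 y₀)) (hu : Tendsto u l (𝓝 u₀)) :
    Tendsto (fun i => fderiv ℝ (L.τ (x i) (y i)) (u i)) l (𝓝 (fderiv ℝ (L.τ x₀ y₀) u₀)) := by
  have h1 := L.tau_cont 1 ((x₀, y₀), u₀) ⟨he0, hd0⟩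
  have h2 : Tendsto (fun i => ((x i, y i), u i)) l (𝓝[{p : (X × X) × E2 |
      L.em p.1.1 = L.em p.1.2 ∧ p.2 ∈ dom L.e p.1.1 p.1.2}] ((x₀, y₀), u₀)) := by
    refine tendsto_nhdsWithin_iff.2 ⟨(hx.prodMk_nhds hy).prodMk_nhds hu, ?_⟩
    filter_upwards [he, hd] with i h1 h2 using ⟨h1, h2⟩
  have h3 := h1.tendsto.comp h2
  have h4 : ∀ (x y : X) (u : E2), fderiv ℝ (L.τ x y) u =
      (continuousMultilinearCurryFin1 ℝ E2 E2) (iteratedFDeriv ℝ 1 (tau L.e x y) u) := by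
    intro x y u
    ext v
    simp [Leaf.τ]
  simp only [h4]
  exact ((continuousMultilinearCurryFin1 ℝ E2 E2).continuous.tendsto _).comp h3

section Area

variable [MeasurableSpace B] [BorelSpace B] {L} (A : Area L)

theorem s_tendsto {ι : Type*} {l : Filter ι} {x : ι → X} {u : ι → E2} {x₀ : X} {u₀ : E2}
    (hx : Tendsto x l (𝓝 x₀)) (hu : Tendsto u l (𝓝 u₀)) (hu₀ : u₀ ∈ ball (0 : E2) 3) :
    Tendsto (fun i => A.s (x i) (u i)) l (𝓝 (A.s x₀ u₀)) := by
  have h1 := A.s_cont 0 (x₀, u₀) ⟨trivial, hu₀⟩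
  have h2 : Tendsto (fun i => (x i, u i)) l (𝓝[univ ×ˢ ball 0 3] (x₀, u₀)) := by
    refine tendsto_nhdsWithin_iff.2 ⟨hx.prodMk_nhds hu, ?_⟩
    filter_upwards [hu (isOpen_ball.mem_nhds hu₀)] with i hi using ⟨trivial, hi⟩
  have h3 := (h1.eval_const (0 : Fin 0 → E2)).tendsto.comp h2
  simpa only [iteratedFDeriv_zero_apply, Function.comp_def] using h3

include A in
theorem det_tau_ne {x y : X} (h : L.em x = L.em y) {u : E2} (hu : u ∈ L.dm x y) :
    (fderiv ℝ (L.τ x y) u).det ≠ 0 := by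
  intro h0
  have h1 := A.s_trans x y h u hu
  rw [h0, abs_zero, mul_zero, zero_mul] at h1
  exact absurd h1 (A.s_pos x u hu.1).ne'

end Area

/-! ### dense orbits -/

/-- points of an orbit in the disc of a frame are dense -/
theorem exists_orbit_near (w : X) {u₀ : E2} (hu₀ : u₀ ∈ ball (0 : E2) 3) (η₀ : B) {V : Set E2}
    (hV : V ∈ 𝓝 u₀) : ∃ k : Γ, ∃ u ∈ V, u ∈ ball (0 : E2) 3 ∧ L.e w u = k • η₀ := by
  have h := L.inv_tendsto (l := 𝓝 (L.e w u₀)) (x := fun _ => w) (b := fun b => b)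
    tendsto_const_nhds tendsto_id hu₀
  have h1 : ∀ᶠ b in 𝓝 (L.e w u₀), b ∈ L.e w '' ball 0 3 ∧ L.inv w b ∈ V :=
    h.1.and (h.2 hV)
  obtain ⟨b, ⟨k, rfl⟩, hb⟩ := (L.dense_orbit η₀).inter_nhds_nonempty h1
  exact ⟨k, L.inv w (k • η₀), hb.2, L.inv_mem_ball le_rfl hb.1,
    L.e_inv (image_mono ball_subset_closedBall hb.1)⟩

/-- pairs g, w such that w is a frame of the leaf of `g ξ` -/
structure Pt (ξ : B) where
  g : Γ
  w : X
  em_w : L.em w = g • ξ

variable {L} in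
/-- the frame of the leaf of `ξ` -/
def Pt.y {ξ : B} (p : Pt L ξ) : X := p.g⁻¹ • p.w

variable {L} in
theorem Pt.em_y {ξ : B} (p : Pt L ξ) : L.em p.y = ξ := by
  rw [Pt.y, L.em_smul, p.em_w, inv_smul_smul]

/-- the filter of all pairs whose frame tends to `w` -/
def Fw (ξ : B) (w : X) : Filter (Pt L ξ) := comap Pt.w (𝓝 w)

theorem tendsto_w (ξ : B) (w : X) : Tendsto Pt.w (Fw L ξ w) (𝓝 w) := tendsto_comap

instance Fw_neBot (ξ : B) (w : X) : (Fw L ξ w).NeBot := by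
  rw [Fw, comap_neBot_iff]
  intro t ht
  have hne : L.em w ≠ L.ep w := L.em_ne_ep w
  have hopen : IsOpen {p : B × X | p.1 ≠ L.ep p.2} := by
    have : IsClosed {p : B × X | p.1 = L.ep p.2} :=
      isClosed_eq continuous_fst (L.ep_cont.comp continuous_snd)
    exact this.isOpen_compl
  have h1 : ContinuousAt (fun p : B × X => L.hol p.1 p.2) (L.em w, w) :=
    L.hol_cont.continuousAt (hopen.mem_nhds hne)
  have h2 : Tendsto (fun b : B => L.hol b w) (𝓝 (L.em w)) (𝓝 w) := by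
    have h3 : Tendsto (fun b : B => (b, w)) (𝓝 (L.em w)) (𝓝 (L.em w, w)) :=
      tendsto_id.prodMk_nhds tendsto_const_nhds
    have h4 := h1.tendsto.comp h3
    simp only [L.hol_self] at h4
    exact h4
  have h5 : ∀ᶠ b in 𝓝 (L.em w), b ≠ L.ep w := isOpen_ne.mem_nhds hne
  have h6 : ∀ᶠ b in 𝓝 (L.em w), L.hol b w ∈ t := h2 ht
  obtain ⟨_, ⟨g, rfl⟩, hb1, hb2⟩ := (L.dense_orbit ξ).inter_nhds_nonempty (h6.and h5)
  exact ⟨⟨g, L.hol (g • ξ) w, L.hol_em _ _ hb2⟩, hb1⟩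

end Vale.Agent.P207.N4.H662
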